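import Vale.Agent.P267D.DB
import Vale.Agent.P267D.DG
import Vale.Agent.P267D.DG0

/-! P267, irregularity: definitions. -/

open scoped Manifold ContDiff Topology
open Filter Metric Set

noncomputable section

namespace Vale.Agent.P267

variable {X : Type} [TopologicalSpace X]

/-- Cocycles of the constant sheaf. -/
def Coc (γ : X → X → ℂ) : Prop := ∀ p, ∀ᶠ q in 𝓝 p, ConstAt (γ p - γ q) q

/-- The real part of the germ at `P.symm z` in the chart `P`. -/
def rlp (a : X → X → ℂ) (P : OpenPartialHomeomorph X C2) (z : C2) : C2 → ℝ :=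
  fun y => (a (P.symm z) (P.symm y)).re

/-- The trace of the Levi form of the real parts. -/
def trf {m : ℕ} (Q : Fin m → OpenPartialHomeomorph X C2) (ρ : Fin m → X → ℝ) (a : X → X → ℂ)
    (x : X) : ℝ := ∑ b, ρ b x * trc (rlp a (Q b) (Q b x)) (Q b x)

variable [ChartedSpace C2 X]

/-- A finite holomorphic atlas. -/
structure Atf {m : ℕ} (Q : Fin m → OpenPartialHomeomorph X C2) : Prop where
  isCh : ∀ b, IsCh (Q b)
  cover : ∀ x, ∃ b, x ∈ (Q b).source

/-- Smooth germs with holomorphic differences. -/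
structure Fam (a : X → X → ℂ) : Prop where
  sm : ∀ p, SmAt (a p) p
  hol : ∀ p, ∀ᶠ q in 𝓝 p, HolAt (a p - a q) q

variable (X) in
/-- The square of the curvature of a connection on the trivial bundle has integral zero. -/
def PZ : Prop := ∀ θ : X → X → C2 →L[ℝ] ℂ, IsConnection id 1 θ →
  ∀ (l : ℕ) (P : Fin l → OpenPartialHomeomorph X C2) (ψ : Fin l → X → ℝ),
    (∀ a, HolChart (P a)) → (∀ a, Continuous (ψ a)) → (∀ a, tsupport (ψ a) ⊆ (P a).source) →
    (∀ x, ∑ a, ψ a x = 1) → pairing P ψ θ θ = 0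

end Vale.Agent.P267
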