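import Vale.Agent.P267G.Defs

/-! P267, irregularity: calculus. -/

open scoped Manifold ContDiff Topology
open Filter Metric Set

noncomputable section

namespace Vale.Agent.P267

set_option linter.unusedSectionVars false

variable {X : Type} [TopologicalSpace X] [ChartedSpace C2 X] [T2Space X] [CompactSpace X]
  [IsManifold 𝓘(ℂ, C2) ω X] {m : ℕ} {Q : Fin m → OpenPartialHomeomorph X C2}
  {ρ : Fin m → X → ℝ} {a a' : X → X → ℂ} {P P' : OpenPartialHomeomorph X C2} {p : X}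

theorem dtm_congr {F G : C2 → ℝ} {z : C2} (hF : ContDiffAt ℝ ∞ F z) (hG : ContDiffAt ℝ ∞ G z)
    (h : ∀ v, lev F z v = lev G z v) : dtm F z = dtm G z := by
  simp only [DG_lev hF, DG_lev hG] at h
  have a1 := h ![1, 0]
  have a2 := h ![0, 1]
  have a3 := h ![1, 1]
  have a4 := h ![1, Complex.I]
  simp only [DG_q, Matrix.cons_val_zero, Matrix.cons_val_one, Complex.one_re, Complex.one_im,
    Complex.zero_re, Complex.zero_im, Complex.I_re, Complex.I_im] at a1 a2 a3 a4
  have b1 : hes F z 0 0 + hes F z 1 1 = hes G z 0 0 + hes G z 1 1 := by linarith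
  have b2 : hes F z 2 2 + hes F z 3 3 = hes G z 2 2 + hes G z 3 3 := by linarith
  have b3 : hes F z 0 2 + hes F z 1 3 = hes G z 0 2 + hes G z 1 3 := by linarith
  have b4 : hes F z 0 3 - hes F z 1 2 = hes G z 0 3 - hes G z 1 2 := by linarith
  unfold dtm
  rw [b1, b2, b3, b4]

theorem lev_re_hol {H : C2 → ℂ} {z : C2} (hH : AnalyticAt ℂ H z) (v : C2) :
    lev (fun y => (H y).re) z v = 0 := by
  let L : C2 →L[ℝ] ℝ := Complex.reCLM.comp
    ((ContinuousLinearMap.proj (R := ℂ) (φ := fun _ : Fin 2 => ℂ) 0).restrictScalars ℝ)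
  have e : lev (fun y => (H y).re) z v = lev L (fun _ => H z) (fderiv ℂ (fun y _ => H y) z v) :=
    lev_comp (F := L) (T := fun y _ => H y) L.contDiff.contDiffAt (AnalyticAt.pi fun _ => hH) v
  have e1 : fderiv ℝ (L : C2 → ℝ) = fun _ => L := funext fun _ => L.fderiv
  rw [e, lev, e1]
  simp

theorem G1_rlp (hp : p ∈ P.source) : rlp a P (P p) = fun y => (a p (P.symm y)).re := by
  unfold rlp
  rw [P.left_inv hp]

theorem Fam.cd (h : Fam a) (hP : IsCh P) (hp : p ∈ P.source) :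
    ∀ᶠ z in 𝓝 (P p), ContDiffAt ℝ ∞ (rlp a P (P p)) z := by
  rw [G1_rlp hp]
  filter_upwards [(hP.sm p hp _).1 (h.sm p)] with z hz
  exact Complex.reCLM.contDiff.contDiffAt.comp _ hz

theorem Fam.near (h : Fam a) (hP : IsCh P) (hp : p ∈ P.source) :
    ∀ᶠ z in 𝓝 (P p), ∀ v, lev (rlp a P z) z v = lev (rlp a P (P p)) z v := by
  filter_upwards [h.cd hP hp, P.open_target.mem_nhds (P.map_source hp),
    (P.tendsto_symm hp).eventually (h.hol p)] with z h1 h2 h3 v
  have h4 := (hP.hol _ (P.map_target h2) _).1 h3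
  rw [P.right_inv h2] at h4
  have e : rlp a P z = fun y => -1 * (((a p - a (P.symm z)) ∘ P.symm) y).re +
      rlp a P (P p) y := by
    rw [G1_rlp hp]
    funext y
    simp [rlp]
  have h5 : ContDiffAt ℝ ∞ (fun y => (((a p - a (P.symm z)) ∘ P.symm) y).re) z :=
    Complex.reCLM.contDiff.contDiffAt.comp _ ((h4.contDiffAt (n := ∞)).restrict_scalars ℝ)
  rw [e, DB_lin h5 h1, lev_re_hol h4]
  simp

theorem Fam.levT (h : Fam a) (hP : IsCh P) (hP' : IsCh P') (hp : p ∈ P.source)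
    (hp' : p ∈ P'.source) : ∃ T : C2 ≃L[ℂ] C2, ∀ v,
      lev (rlp a P' (P' p)) (P' p) v = lev (rlp a P (P p)) (P p) (T v) := by
  have e0 : (P ∘ P'.symm) (P' p) = P p := by rw [Function.comp_apply, P'.left_inv hp']
  have e1 : rlp a P' (P' p) =ᶠ[𝓝 (P' p)] rlp a P (P p) ∘ (P ∘ P'.symm) := by
    rw [G1_rlp hp, G1_rlp hp']
    filter_upwards [(P'.tendsto_symm hp').eventually (P.open_source.mem_nhds hp)] with z hz
    simp only [Function.comp_apply, P.left_inv hz]
  refine ⟨ContinuousLinearEquiv.equivOfInverse (fderiv ℂ (P ∘ P'.symm) (P' p))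
    (fderiv ℂ (P' ∘ P.symm) (P p)) (DFunLike.congr_fun (hP'.tr_comp hP hp' hp))
    (DFunLike.congr_fun (hP.tr_comp hP' hp hp')), fun v => ?_⟩
  have e2 := lev_comp (by rw [e0]; exact (h.cd hP hp).self_of_nhds) (hP'.tr hP hp' hp) v
  rw [e0] at e2
  exact (DB_congr e1 v).trans e2

end Vale.Agent.P267
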