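import Vale.Agent.P267G.G1

/-! P267, irregularity: the trace. -/

open scoped Manifold ContDiff Topology
open Filter Metric Set

noncomputable section

namespace Vale.Agent.P267

set_option linter.unusedSectionVars false

variable {X : Type} [TopologicalSpace X] [ChartedSpace C2 X] [T2Space X] [CompactSpace X]
  [IsManifold 𝓘(ℂ, C2) ω X] {m : ℕ} {Q : Fin m → OpenPartialHomeomorph X C2}
  {ρ : Fin m → X → ℝ} {a a' : X → X → ℂ} {P P' : OpenPartialHomeomorph X C2} {p : X}

theorem Atf.smAt (hQ : Atf Q) {u : X → ℝ} (hu : ∀ b, ContDiffOn ℝ ∞ (u ∘ (Q b).symm) (Q b).target)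
    (p : X) : SmAt (fun q => (u q : ℂ)) p := by
  obtain ⟨b, hp⟩ := hQ.cover p
  refine ((hQ.isCh b).sm p hp _).2 ?_
  filter_upwards [(Q b).open_target.mem_nhds ((Q b).map_source hp)] with z hz
  exact Complex.ofRealCLM.contDiff.contDiffAt.comp z
    ((hu b).contDiffAt ((Q b).open_target.mem_nhds hz))

theorem Fam.trf_sm (h : Fam a) (hQ : Atf Q) (hρ : Pu Q ρ) (b : Fin m) :
    ContDiffOn ℝ ∞ (trf Q ρ a ∘ (Q b).symm) (Q b).target := by
  intro z hz
  refine ContDiffAt.contDiffWithinAt ?_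
  have hn := (Q b).open_target.mem_nhds hz
  show ContDiffAt ℝ ∞ (fun y => ∑ c, ρ c ((Q b).symm y) *
    trc (rlp a (Q c) (Q c ((Q b).symm y))) (Q c ((Q b).symm y))) z
  refine ContDiffAt.sum fun c _ => ?_
  by_cases hx : (Q b).symm z ∈ tsupport (ρ c)
  · have h1 := hρ.supp c hx
    have h2 := DB_trc (h.cd (hQ.isCh c) h1).self_of_nhds
    have h3 := (hQ.isCh b).tr (hQ.isCh c) ((Q b).map_target hz) h1
    rw [(Q b).right_inv hz] at h3
    have h4 := ((hρ.sm c b).contDiffAt hn).mul (ContDiffAt.comp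
      (g := trc (rlp a (Q c) (Q c ((Q b).symm z)))) z h2
      ((h3.contDiffAt (n := ∞)).restrict_scalars ℝ))
    refine h4.congr_of_eventuallyEq ?_
    filter_upwards [h3.continuousAt.eventually (h.near (hQ.isCh c) h1)] with y hy
    simp only [Function.comp_apply] at hy ⊢
    simp only [trc, hy]
  · refine (contDiffAt_const (c := 0)).congr_of_eventuallyEq ?_
    filter_upwards [((Q b).continuousAt_symm hz).eventually
      (notMem_tsupport_iff_eventuallyEq.1 hx)] with y hy
    rw [hy, Pi.zero_apply, zero_mul]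

theorem Fam.lin (h : Fam a) (h' : Fam a') (c : ℝ) {u : X → ℝ}
    (hu : ∀ p, SmAt (fun q => (u q : ℂ)) p) : Fam fun p q => a p q + c * a' p q - u q := by
  refine ⟨fun p => ((h.sm p).add ((h'.sm p).smul (c : ℂ))).sub (hu p), fun p => ?_⟩
  filter_upwards [h.hol p, h'.hol p] with q h1 h2
  refine (h1.add (h2.smul (c : ℂ))).congr (Eventually.of_forall fun r => ?_)
  simp only [Pi.add_apply, Pi.sub_apply, Pi.smul_apply, smul_eq_mul]
  ring

theorem Fam.trf_lin (h : Fam a) (h' : Fam a') (hρ : Pu Q ρ) (hQ : Atf Q) (c : ℝ) {u : X → ℝ}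
    (hu : ∀ b, ContDiffOn ℝ ∞ (u ∘ (Q b).symm) (Q b).target) (x : X) :
    trf Q ρ (fun p q => a p q + c * a' p q - u q) x =
      trf Q ρ a x + c * trf Q ρ a' x - pop Q ρ (fun b => u ∘ (Q b).symm) x := by
  unfold trf pop
  rw [Finset.mul_sum, ← Finset.sum_add_distrib, ← Finset.sum_sub_distrib]
  refine Finset.sum_congr rfl fun b _ => ?_
  by_cases h0 : ρ b x = 0
  · simp [h0]
  have hx : x ∈ (Q b).source := hρ.supp b (subset_tsupport _ h0)
  have hz := (Q b).map_source hx
  have hn := (Q b).open_target.mem_nhds hz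
  have e : rlp (fun p q => a p q + c * a' p q - u q) (Q b) (Q b x) =
      fun y => c * rlp a' (Q b) (Q b x) y +
        ((-1) * (u ∘ (Q b).symm) y + rlp a (Q b) (Q b x) y) := by
    funext y
    simp only [rlp, Complex.sub_re, Complex.add_re, Complex.re_ofReal_mul, Complex.ofReal_re,
      Function.comp_apply]
    ring
  have c1 := (h.cd (hQ.isCh b) hx).self_of_nhds
  have c2 := (h'.cd (hQ.isCh b) hx).self_of_nhds
  have c3 := (hu b).contDiffAt hn
  have k1 := DB_lin c3 c1 (-1)
  have k2 := DB_lin c2 ((contDiffAt_const.mul c3).add c1 : ContDiffAt ℝ ∞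
    (fun y => (-1) * (u ∘ (Q b).symm) y + rlp a (Q b) (Q b x) y) (Q b x)) c
  simp only [trc, e, k2, k1]
  ring

end Vale.Agent.P267
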